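import Mathlib

namespace Vale.Agent.Results.P124.FiniteDimensional

open Module Set

universe u v

/-- `X` and `Y` are Lipschitz isomorphic: there are a bijection `f : X → Y` and constants
`0 < c ≤ C` with `c ‖x - x'‖ ≤ ‖f x - f x'‖ ≤ C ‖x - x'‖` for all `x, x'`. -/
def LipschitzIsomorphic (X : Type u) (Y : Type v) [NormedAddCommGroup X] [NormedSpace ℝ X]
    [NormedAddCommGroup Y] [NormedSpace ℝ Y] : Prop :=
  ∃ (f : X → Y) (c C : ℝ), Function.Bijective f ∧ 0 < c ∧ c ≤ C ∧
    ∀ x x' : X, c * ‖x - x'‖ ≤ ‖f x - f x'‖ ∧ ‖f x - f x'‖ ≤ C * ‖x - x'‖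

theorem rank_le_of_lipschitz_surjective {X : Type u} {Y : Type v}
    [NormedAddCommGroup X] [NormedSpace ℝ X] [FiniteDimensional ℝ X]
    [NormedAddCommGroup Y] [NormedSpace ℝ Y]
    (g : X → Y) (K : NNReal) (hg : LipschitzWith K g) (hs : Function.Surjective g)
    (n : ℕ) (hn : (n : Cardinal) ≤ Module.rank ℝ Y) : n ≤ finrank ℝ X := by
  obtain ⟨w, hw⟩ := exists_linearIndependent_of_le_rank hn
  have hfin : FiniteDimensional ℝ (Submodule.span ℝ (Set.range w)) :=
    FiniteDimensional.span_of_finite ℝ (Set.finite_range w)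
  have hrank : finrank ℝ (Submodule.span ℝ (Set.range w)) = n := by
    rw [finrank_span_eq_card hw, Fintype.card_fin]
  have h1 : dimH (univ : Set (Submodule.span ℝ (Set.range w))) = (n : ENNReal) := by
    rw [Real.dimH_univ_eq_finrank, hrank]
  have hiso : Isometry (fun x : Submodule.span ℝ (Set.range w) => (x : Y)) :=
    isometry_subtype_coe
  have h2 : dimH ((fun x : Submodule.span ℝ (Set.range w) => (x : Y)) '' univ) = (n : ENNReal) := by
    rw [hiso.dimH_image, h1]
  have h3 : dimH ((fun x : Submodule.span ℝ (Set.range w) => (x : Y)) '' univ)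
      ≤ dimH (univ : Set Y) := dimH_mono (subset_univ _)
  have h4 : dimH (univ : Set Y) ≤ dimH (univ : Set X) := by
    have h5 := hg.dimH_image_le (univ : Set X)
    rwa [image_univ, hs.range_eq] at h5
  have h6 : dimH (univ : Set X) = (finrank ℝ X : ENNReal) := Real.dimH_univ_eq_finrank X
  have h7 : (n : ENNReal) ≤ (finrank ℝ X : ENNReal) := by
    rw [← h2, ← h6]; exact h3.trans h4
  exact_mod_cast h7

theorem finite_of_lipschitz_surjective {X : Type u} {Y : Type v}
    [NormedAddCommGroup X] [NormedSpace ℝ X] [FiniteDimensional ℝ X]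
    [NormedAddCommGroup Y] [NormedSpace ℝ Y]
    (g : X → Y) (K : NNReal) (hg : LipschitzWith K g) (hs : Function.Surjective g) :
    FiniteDimensional ℝ Y := by
  by_contra hY
  have hinf : Cardinal.aleph0 ≤ Module.rank ℝ Y := by
    by_contra hlt
    exact hY (Module.rank_lt_aleph0_iff.mp (not_le.mp hlt))
  have h := rank_le_of_lipschitz_surjective g K hg hs (finrank ℝ X + 1)
    (Cardinal.natCast_lt_aleph0.le.trans hinf)
  omega

theorem finrank_le_of_lipschitz_surjective {X : Type u} {Y : Type v}
    [NormedAddCommGroup X] [NormedSpace ℝ X] [FiniteDimensional ℝ X]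
    [NormedAddCommGroup Y] [NormedSpace ℝ Y] [FiniteDimensional ℝ Y]
    (g : X → Y) (K : NNReal) (hg : LipschitzWith K g) (hs : Function.Surjective g) :
    finrank ℝ Y ≤ finrank ℝ X := by
  apply rank_le_of_lipschitz_surjective g K hg hs
  rw [finrank_eq_rank]

/-- If a real normed space `Y` is Lipschitz isomorphic to a finite-dimensional real normed
space `X`, then `X` and `Y` are linearly isomorphic (by a bounded linear bijection). -/
theorem result (X : Type u) (Y : Type v) [NormedAddCommGroup X] [NormedSpace ℝ X]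
    [FiniteDimensional ℝ X] [NormedAddCommGroup Y] [NormedSpace ℝ Y]
    (h : LipschitzIsomorphic X Y) : Nonempty (X ≃L[ℝ] Y) := by
  obtain ⟨f, c, C, hbij, hc, hcC, hf⟩ := h
  have hC : 0 ≤ C := hc.le.trans hcC
  have hfL : LipschitzWith (Real.toNNReal C) f := by
    apply LipschitzWith.of_dist_le_mul
    intro x x'
    rw [dist_eq_norm, dist_eq_norm, Real.coe_toNNReal C hC]
    exact (hf x x').2
  have hYfin : FiniteDimensional ℝ Y :=
    finite_of_lipschitz_surjective f _ hfL hbij.surjective
  have h1 : finrank ℝ Y ≤ finrank ℝ X :=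
    finrank_le_of_lipschitz_surjective f _ hfL hbij.surjective
  -- the inverse map
  let e : X ≃ Y := Equiv.ofBijective f hbij
  have hgL : LipschitzWith (Real.toNNReal c⁻¹) e.symm := by
    apply LipschitzWith.of_dist_le_mul
    intro y y'
    rw [dist_eq_norm, dist_eq_norm, Real.coe_toNNReal c⁻¹ (inv_nonneg.mpr hc.le)]
    have h2 := (hf (e.symm y) (e.symm y')).1
    have h3 : f (e.symm y) = y := e.apply_symm_apply y
    have h4 : f (e.symm y') = y' := e.apply_symm_apply y'
    rw [h3, h4] at h2
    rw [inv_mul_eq_div, le_div_iff₀ hc, mul_comm]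
    exact h2
  have h2 : finrank ℝ X ≤ finrank ℝ Y :=
    finrank_le_of_lipschitz_surjective e.symm _ hgL e.symm.surjective
  exact ⟨(LinearEquiv.ofFinrankEq X Y (le_antisymm h2 h1)).toContinuousLinearEquiv⟩

end Vale.Agent.Results.P124.FiniteDimensional
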